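import Vale.Agent.P181.R2.H553.Defs

/-!
Row 4a, 4b of P181.ThreeRowBulk: the functions of `x^a` and of `[12]^q (x x)^(a-q)`.
The master statement (row 2) is the argument `H`.
-/

set_option autoImplicit false

open MvPolynomial

namespace Vale.Agent.P181.H553.Row4

open Vale.Agent.P181 Vale.Agent.P181.H280 Vale.Agent.P181.H179 Vale.Agent.P181.H553

/-- The literal statement of row 2 (`hwf_of`). -/
def HwfOf : Prop :=
  ∀ {a r : ℕ} {lam : Fin 3 → ℕ} (Q : MvPolynomial (Fin r × Fin 3) ℂ),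
    Multi a r Q → Semi lam Q →
      HWF a r lam (fun c => integ c (fun p => eval (fun s : Fin r × Fin 3 => p s.1 s.2) Q))

lemma vecMul_zero (g : Matrix (Fin 3) (Fin 3) ℂ) (hg : IsBorel g) (p : Pt) :
    Matrix.vecMul p g 0 = p 0 * g 0 0 := by
  have h1 : g 1 0 = 0 := hg.1 1 0 (by decide)
  have h2 : g 2 0 = 0 := hg.1 2 0 (by decide)
  simp [Matrix.vecMul, dotProduct, Fin.sum_univ_three, h1, h2]

lemma vecMul_one (g : Matrix (Fin 3) (Fin 3) ℂ) (hg : IsBorel g) (p : Pt) :
    Matrix.vecMul p g 1 = p 0 * g 0 1 + p 1 * g 1 1 := by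
  have h2 : g 2 1 = 0 := hg.1 2 1 (by decide)
  simp [Matrix.vecMul, dotProduct, Fin.sum_univ_three, h2]

/-- A sum of nonnegative terms with one positive term is not zero. -/
lemma integ_ne_zero {r : ℕ} (c : Meas) (f : (Fin r → Pt) → ℂ)
    (h : ∀ p : Fin r → Pt, (∀ l, p l ∈ c.support) → ∃ t : ℝ, 0 ≤ t ∧ (∏ l, c (p l)) * f p = t)
    (h' : ∃ p : Fin r → Pt, (∀ l, p l ∈ c.support) ∧ (∏ l, c (p l)) * f p ≠ 0) :
    integ c f ≠ 0 := by
  classical
  have h2 : ∀ p : Fin r → Pt, ∃ t : ℝ, (∀ l, p l ∈ c.support) →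
      0 ≤ t ∧ (∏ l, c (p l)) * f p = t := by
    intro p
    by_cases hp : ∀ l, p l ∈ c.support
    · obtain ⟨t, ht⟩ := h p hp
      exact ⟨t, fun _ => ht⟩
    · exact ⟨0, fun h => absurd h hp⟩
  choose t ht using h2
  have e : integ c f = ((∑ p ∈ Fintype.piFinset (fun _ : Fin r => c.support), t p : ℝ) : ℂ) := by
    unfold integ
    rw [Complex.ofReal_sum]
    refine Finset.sum_congr rfl fun p hp => ?_
    exact (ht p (Fintype.mem_piFinset.1 hp)).2
  rw [e]
  obtain ⟨p, hp, hne⟩ := h'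
  have hpos : 0 < ∑ p ∈ Fintype.piFinset (fun _ : Fin r => c.support), t p := by
    refine Finset.sum_pos' (fun q hq => (ht q (Fintype.mem_piFinset.1 hq)).1)
      ⟨p, Fintype.mem_piFinset.2 hp, ?_⟩
    rcases (ht p hp).1.lt_or_eq with h | h
    · exact h
    · exact absurd (by rw [(ht p hp).2, ← h]; simp) hne
  exact_mod_cast hpos.ne'

/-- ROW 4a. -/
theorem exists_one_of (H : HwfOf) (a : ℕ) : ∃ f : Meas → ℂ, f ≠ 0 ∧ HWF a 1 ![a, 0, 0] f := by
  classical
  refine ⟨_, ?_, H (a := a) (r := 1) (lam := ![a, 0, 0]) (X ((0 : Fin 1), (0 : Fin 3)) ^ a) ?_ ?_⟩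
  · intro h
    have h1 := congrFun h (Finsupp.single (fun _ => 1) 1)
    refine integ_ne_zero (Finsupp.single (fun _ => 1) 1) _ ?_ ?_ h1
    · intro p hp
      have h0 := hp 0
      rw [Finsupp.mem_support_iff, Finsupp.single_apply] at h0
      split_ifs at h0 with h2
      · refine ⟨1, zero_le_one, ?_⟩
        simp [← h2]
      · exact absurd rfl h0
    · refine ⟨fun _ _ => 1, ?_, ?_⟩
      · intro l
        simp
      · simp
  · intro l
    have := (isWeightedHomogeneous_X ℂ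
      (fun s : Fin 1 × Fin 3 => if s.1 = l then 1 else 0) ((0 : Fin 1), (0 : Fin 3))).pow a
    have hl : (0 : Fin 1) = l := Subsingleton.elim _ _
    simpa [hl] using this
  · intro g hg p
    simp [vecMul_zero g hg, Fin.prod_univ_three, mul_pow, mul_comm]

/-- The bracket `[12]`. -/
noncomputable def br : MvPolynomial (Fin 2 × Fin 3) ℂ :=
  X (0, 0) * X (1, 1) - X (0, 1) * X (1, 0)

lemma br_homog (l : Fin 2) :
    IsWeightedHomogeneous (fun s : Fin 2 × Fin 3 => if s.1 = l then 1 else 0) br 1 := by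
  have h1 := (isWeightedHomogeneous_X ℂ
    (fun s : Fin 2 × Fin 3 => if s.1 = l then 1 else 0) ((0 : Fin 2), (0 : Fin 3))).mul
    (isWeightedHomogeneous_X ℂ
    (fun s : Fin 2 × Fin 3 => if s.1 = l then 1 else 0) ((1 : Fin 2), (1 : Fin 3)))
  have h2 := (isWeightedHomogeneous_X ℂ
    (fun s : Fin 2 × Fin 3 => if s.1 = l then 1 else 0) ((0 : Fin 2), (1 : Fin 3))).mul
    (isWeightedHomogeneous_X ℂ
    (fun s : Fin 2 × Fin 3 => if s.1 = l then 1 else 0) ((1 : Fin 2), (0 : Fin 3)))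
  have h3 : ((if (0 : Fin 2) = l then 1 else 0) + (if (1 : Fin 2) = l then 1 else 0) : ℕ) = 1 := by
    fin_cases l <;> simp
  simp only [h3] at h1 h2
  rw [← mem_weightedHomogeneousSubmodule] at h1 h2 ⊢
  exact Submodule.sub_mem _ h1 h2

lemma xx_homog (l : Fin 2) :
    IsWeightedHomogeneous (fun s : Fin 2 × Fin 3 => if s.1 = l then 1 else 0)
      (X (0, 0) * X (1, 0) : MvPolynomial (Fin 2 × Fin 3) ℂ) 1 := by
  have h1 := (isWeightedHomogeneous_X ℂ
    (fun s : Fin 2 × Fin 3 => if s.1 = l then 1 else 0) ((0 : Fin 2), (0 : Fin 3))).mul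
    (isWeightedHomogeneous_X ℂ
    (fun s : Fin 2 × Fin 3 => if s.1 = l then 1 else 0) ((1 : Fin 2), (0 : Fin 3)))
  have h3 : ((if (0 : Fin 2) = l then 1 else 0) + (if (1 : Fin 2) = l then 1 else 0) : ℕ) = 1 := by
    fin_cases l <;> simp
  simpa only [h3] using h1

/-- ROW 4b. -/
theorem exists_two_of (H : HwfOf) (a q : ℕ) (hq : Even q) (hqa : q ≤ a) :
    ∃ f : Meas → ℂ, f ≠ 0 ∧ HWF a 2 ![2 * a - q, q, 0] f := by
  classical
  refine ⟨_, ?_, H (a := a) (r := 2) (lam := ![2 * a - q, q, 0])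
    (br ^ q * (X (0, 0) * X (1, 0)) ^ (a - q)) ?_ ?_⟩
  · intro h
    have h1 := congrFun h (Finsupp.single ![1, 0, 0] 1 + Finsupp.single ![1, 1, 0] 1)
    have hne : (![1, 0, 0] : Pt) ≠ ![1, 1, 0] := by
      intro h
      have := congrFun h 1
      simp at this
    have hval : ∀ x : Pt, (Finsupp.single (![1, 0, 0] : Pt) (1 : ℂ) +
        Finsupp.single (![1, 1, 0] : Pt) (1 : ℂ)) x ≠ 0 →
        (x = ![1, 0, 0] ∨ x = ![1, 1, 0]) ∧ (Finsupp.single (![1, 0, 0] : Pt) (1 : ℂ) +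
        Finsupp.single (![1, 1, 0] : Pt) (1 : ℂ)) x = 1 := by
      intro x hx
      rw [Finsupp.add_apply, Finsupp.single_apply, Finsupp.single_apply] at hx ⊢
      by_cases h2 : (![1, 0, 0] : Pt) = x
      · have h3 : (![1, 1, 0] : Pt) ≠ x := fun h => hne (h2.trans h.symm)
        rw [if_pos h2, if_neg h3]
        exact ⟨Or.inl h2.symm, by simp⟩
      · by_cases h3 : (![1, 1, 0] : Pt) = x
        · rw [if_neg h2, if_pos h3]
          exact ⟨Or.inr h3.symm, by simp⟩
        · rw [if_neg h2, if_neg h3] at hx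
          simp at hx
    have hmem : ∀ x : Pt, (x = ![1, 0, 0] ∨ x = ![1, 1, 0]) →
        (Finsupp.single (![1, 0, 0] : Pt) (1 : ℂ) +
        Finsupp.single (![1, 1, 0] : Pt) (1 : ℂ)) x = 1 := by
      intro x hx
      rw [Finsupp.add_apply, Finsupp.single_apply, Finsupp.single_apply]
      rcases hx with hx | hx
      · rw [if_pos hx.symm, if_neg (fun h => hne (hx.symm.trans h.symm))]
        simp
      · rw [if_neg (fun h => hne (h.trans hx)), if_pos hx.symm]
        simp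
    refine integ_ne_zero _ _ ?_ ?_ h1
    · intro p hp
      have h00 := hval (p 0) (Finsupp.mem_support_iff.1 (hp 0))
      have h11 := hval (p 1) (Finsupp.mem_support_iff.1 (hp 1))
      rw [Fin.prod_univ_two, h00.2, h11.2]
      rcases h00.1 with h0 | h0 <;> rcases h11.1 with h1 | h1
      · refine ⟨0 ^ q, by positivity, ?_⟩
        simp [br, h0, h1]
      · refine ⟨1, by positivity, ?_⟩
        simp [br, h0, h1]
      · refine ⟨1, by positivity, ?_⟩
        simp [br, h0, h1, hq.neg_one_pow]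
      · refine ⟨0 ^ q, by positivity, ?_⟩
        simp [br, h0, h1]
    · refine ⟨![![1, 0, 0], ![1, 1, 0]], ?_, ?_⟩
      · intro l
        rw [Finsupp.mem_support_iff, hmem]
        · exact one_ne_zero
        · fin_cases l <;> simp
      · rw [Fin.prod_univ_two, hmem _ (by simp), hmem _ (by simp)]
        simp [br]
  · intro l
    have h := ((br_homog l).pow q).mul ((xx_homog l).pow (a - q))
    have e : q • 1 + (a - q) • 1 = a := by
      simp only [smul_eq_mul, mul_one]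
      omega
    rwa [e] at h
  · intro g hg p
    have e : 2 * a - q = q + (a - q) + (a - q) := by omega
    simp only [br, map_mul, map_sub, map_pow, eval_X, vecMul_zero g hg, vecMul_one g hg,
      Fin.prod_univ_three, Matrix.cons_val_zero, Matrix.cons_val_one, Matrix.cons_val_two,
      Matrix.head_cons, Matrix.tail_cons, pow_zero, mul_one, e]
    have e2 : p 0 0 * g 0 0 * (p 1 0 * g 0 1 + p 1 1 * g 1 1) -
        (p 0 0 * g 0 1 + p 0 1 * g 1 1) * (p 1 0 * g 0 0) =
        (g 0 0 * g 1 1) * (p 0 0 * p 1 1 - p 0 1 * p 1 0) := by ring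
    rw [e2, mul_pow (g 0 0 * g 1 1)]
    ring

end Vale.Agent.P181.H553.Row4
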