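import Vale.Agent.P181.R2.H644.BRows
import Vale.Agent.P181.R2.H155.ThreeBulkRow4
import Vale.Agent.P181.R2.H959.FDefs

/-!
Even partitions: for every `nu` with at most three rows, `|nu| = b n`, `b ≥ 3`, there is a nonzero
highest weight vector of weight `2 nu` in `Sym^b(Sym^(2n) ℂ^3)` (the square of a product of column
brackets, filled cyclically, is positive at real points).
-/

set_option autoImplicit false

open MvPolynomial

namespace Vale.Agent.P181.H155

open Vale.Agent.P181 Vale.Agent.P181.H280 Vale.Agent.P181.H179 Vale.Agent.P181.H553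

section

variable (b : ℕ) [NeZero b]

/-- The coordinate `i` of the point in the box `t` (cyclic filling). -/
noncomputable def xx (t : ℕ) (i : Fin 3) : MvPolynomial (Fin b × Fin 3) ℂ := X (Fin.ofNat b t, i)

/-- The bracket of a column of height 2. -/
noncomputable def B2 (s t : ℕ) : MvPolynomial (Fin b × Fin 3) ℂ :=
  xx b s 0 * xx b t 1 - xx b s 1 * xx b t 0

/-- The bracket of a column of height 3. -/
noncomputable def B3 (s t u : ℕ) : MvPolynomial (Fin b × Fin 3) ℂ :=
  xx b s 0 * (xx b t 1 * xx b u 2) - xx b s 0 * (xx b t 2 * xx b u 1)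
    - xx b s 1 * (xx b t 0 * xx b u 2) + xx b s 1 * (xx b t 2 * xx b u 0)
    + xx b s 2 * (xx b t 0 * xx b u 1) - xx b s 2 * (xx b t 1 * xx b u 0)

/-- The product of all the brackets: `i` columns of height 3, `j` of height 2, `k` of height 1. -/
noncomputable def FF (i j k : ℕ) : MvPolynomial (Fin b × Fin 3) ℂ :=
  (∏ m ∈ Finset.range i, B3 b (3 * m) (3 * m + 1) (3 * m + 2)) *
    (∏ m ∈ Finset.range j, B2 b (3 * i + 2 * m) (3 * i + 2 * m + 1)) *
    (∏ m ∈ Finset.range k, xx b (3 * i + 2 * j + m) 0)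

/-- Indicator of the point `l`. -/
def ind (l : Fin b) (t : ℕ) : ℕ := if Fin.ofNat b t = l then 1 else 0

lemma xx_hom (l : Fin b) (t : ℕ) (i : Fin 3) :
    IsWeightedHomogeneous (fun s : Fin b × Fin 3 => if s.1 = l then 1 else 0) (xx b t i)
      (ind b l t) :=
  isWeightedHomogeneous_X ℂ (fun s : Fin b × Fin 3 => if s.1 = l then 1 else 0)
    (Fin.ofNat b t, i)

lemma B2_hom (l : Fin b) (s t : ℕ) :
    IsWeightedHomogeneous (fun s : Fin b × Fin 3 => if s.1 = l then 1 else 0) (B2 b s t)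
      (ind b l s + ind b l t) := by
  have h1 := (xx_hom b l s 0).mul (xx_hom b l t 1)
  have h2 := (xx_hom b l s 1).mul (xx_hom b l t 0)
  rw [← mem_weightedHomogeneousSubmodule] at h1 h2 ⊢
  exact Submodule.sub_mem _ h1 h2

lemma B3_hom (l : Fin b) (s t u : ℕ) :
    IsWeightedHomogeneous (fun s : Fin b × Fin 3 => if s.1 = l then 1 else 0) (B3 b s t u)
      (ind b l s + (ind b l t + ind b l u)) := by
  have h : ∀ i j k : Fin 3, xx b s i * (xx b t j * xx b u k) ∈ weightedHomogeneousSubmodule ℂ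
      (fun s : Fin b × Fin 3 => if s.1 = l then 1 else 0)
      (ind b l s + (ind b l t + ind b l u)) := fun i j k =>
    (xx_hom b l s i).mul ((xx_hom b l t j).mul (xx_hom b l u k))
  rw [← mem_weightedHomogeneousSubmodule]
  exact Submodule.sub_mem _ (Submodule.add_mem _ (Submodule.add_mem _ (Submodule.sub_mem _
    (Submodule.sub_mem _ (h 0 1 2) (h 0 2 1)) (h 1 0 2)) (h 1 2 0)) (h 2 0 1)) (h 2 1 0)

lemma sum_ind (l : Fin b) (n : ℕ) : ∑ t ∈ Finset.range (b * n), ind b l t = n := by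
  induction n with
  | zero => simp
  | succ n ih =>
    rw [Nat.mul_succ, Finset.sum_range_add, ih]
    congr 1
    rw [Finset.sum_eq_single (l : ℕ)]
    · unfold ind
      rw [if_pos]
      apply Fin.ext
      simp [Fin.ofNat, Nat.mod_eq_of_lt l.2]
    · intro x hx hne
      unfold ind
      rw [if_neg]
      intro h
      apply hne
      rw [← h]
      simp [Fin.ofNat, Nat.mod_eq_of_lt (Finset.mem_range.1 hx)]
    · intro h
      exact absurd (Finset.mem_range.2 l.2) h

lemma sum3 (g : ℕ → ℕ) (m : ℕ) :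
    ∑ k ∈ Finset.range m, (g (3 * k) + (g (3 * k + 1) + g (3 * k + 2))) =
      ∑ t ∈ Finset.range (3 * m), g t := by
  induction m with
  | zero => simp
  | succ m ih =>
    rw [Finset.sum_range_succ, ih, show 3 * (m + 1) = 3 * m + 1 + 1 + 1 from by ring,
      Finset.sum_range_succ, Finset.sum_range_succ, Finset.sum_range_succ]
    ring

lemma sum2 (g : ℕ → ℕ) (m : ℕ) :
    ∑ k ∈ Finset.range m, (g (2 * k) + g (2 * k + 1)) =
      ∑ t ∈ Finset.range (2 * m), g t := by
  induction m with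
  | zero => simp
  | succ m ih =>
    rw [Finset.sum_range_succ, ih, show 2 * (m + 1) = 2 * m + 1 + 1 from by ring,
      Finset.sum_range_succ, Finset.sum_range_succ]
    ring

lemma FF_multi (i j k n : ℕ) (h : 3 * i + 2 * j + k = b * n) : Multi n b (FF b i j k) := by
  intro l
  have h3 := IsWeightedHomogeneous.prod (Finset.range i)
    (fun m => B3 b (3 * m) (3 * m + 1) (3 * m + 2)) _ (fun m _ => B3_hom b l _ _ _)
  have h2 := IsWeightedHomogeneous.prod (Finset.range j)
    (fun m => B2 b (3 * i + 2 * m) (3 * i + 2 * m + 1)) _ (fun m _ => B2_hom b l _ _)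
  have h1 := IsWeightedHomogeneous.prod (Finset.range k)
    (fun m => xx b (3 * i + 2 * j + m) 0) _ (fun m _ => xx_hom b l _ _)
  have := (h3.mul h2).mul h1
  have e : (∑ m ∈ Finset.range i, (ind b l (3 * m) + (ind b l (3 * m + 1) + ind b l (3 * m + 2))))
      + (∑ m ∈ Finset.range j, (ind b l (3 * i + 2 * m) + ind b l (3 * i + 2 * m + 1)))
      + ∑ m ∈ Finset.range k, ind b l (3 * i + 2 * j + m) = n := by
    have e2 := sum2 (fun t => ind b l (3 * i + t)) j
    simp only [← add_assoc] at e2 ⊢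
    rw [e2]
    have e3 := sum3 (ind b l) i
    simp only [← add_assoc] at e3
    rw [e3, ← Finset.sum_range_add, ← Finset.sum_range_add, h, sum_ind]
  rw [e] at this
  exact this

lemma eval_xx (t : ℕ) (i : Fin 3) (v : Fin b × Fin 3 → ℂ) :
    eval v (xx b t i) = v (Fin.ofNat b t, i) := by
  simp [xx]

lemma FF_semi (i j k : ℕ) (g : Matrix (Fin 3) (Fin 3) ℂ) (hg : IsBorel g) (p : Fin b → Pt) :
    eval (fun s : Fin b × Fin 3 => Matrix.vecMul (p s.1) g s.2) (FF b i j k) =
      (g 0 0 ^ (i + j + k) * g 1 1 ^ (i + j) * g 2 2 ^ i) *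
        eval (fun s : Fin b × Fin 3 => p s.1 s.2) (FF b i j k) := by
  have v0 : ∀ q : Pt, Matrix.vecMul q g 0 = q 0 * g 0 0 := fun q => Row4.vecMul_zero g hg q
  have v1 : ∀ q : Pt, Matrix.vecMul q g 1 = q 0 * g 0 1 + q 1 * g 1 1 :=
    fun q => Row4.vecMul_one g hg q
  have v2 : ∀ q : Pt, Matrix.vecMul q g 2 = q 0 * g 0 2 + q 1 * g 1 2 + q 2 * g 2 2 := by
    intro q
    simp [Matrix.vecMul, dotProduct, Fin.sum_univ_three]
  have h3 : ∀ s t u : ℕ, eval (fun s : Fin b × Fin 3 => Matrix.vecMul (p s.1) g s.2) (B3 b s t u) =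
      (g 0 0 * g 1 1 * g 2 2) * eval (fun s : Fin b × Fin 3 => p s.1 s.2) (B3 b s t u) := by
    intro s t u
    simp only [B3, map_sub, map_add, map_mul, eval_xx, v0, v1, v2]
    ring
  have h2 : ∀ s t : ℕ, eval (fun s : Fin b × Fin 3 => Matrix.vecMul (p s.1) g s.2) (B2 b s t) =
      (g 0 0 * g 1 1) * eval (fun s : Fin b × Fin 3 => p s.1 s.2) (B2 b s t) := by
    intro s t
    simp only [B2, map_sub, map_mul, eval_xx, v0, v1]
    ring
  have h1 : ∀ s : ℕ, eval (fun s : Fin b × Fin 3 => Matrix.vecMul (p s.1) g s.2) (xx b s 0) =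
      g 0 0 * eval (fun s : Fin b × Fin 3 => p s.1 s.2) (xx b s 0) := by
    intro s
    simp only [eval_xx, v0]
    ring
  simp only [FF, map_mul, map_prod, h3, h2, h1, Finset.prod_mul_distrib, Finset.prod_const,
    Finset.card_range]
  ring

end

lemma ofNat_ne {b : ℕ} [NeZero b] (hb : 3 ≤ b) (t i j : ℕ) (hij : i < j) (hj : j < 3) :
    Fin.ofNat b (t + i) ≠ Fin.ofNat b (t + j) := by
  intro h
  have h1 : (t + i) % b = (t + j) % b := by
    have := congrArg Fin.val h
    simpa [Fin.ofNat] using this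
  have h2 : i ≡ j [MOD b] := Nat.ModEq.add_left_cancel' t h1
  have h3 := Nat.ModEq.eq_of_lt_of_lt h2 (by omega) (by omega)
  omega

/-- The points `(1, l, l^2)`. -/
noncomputable def PP {b : ℕ} (l : Fin b) : Pt := ![1, ((l : ℕ) : ℂ), ((l : ℕ) : ℂ) ^ 2]

lemma PP_inj {b : ℕ} : Function.Injective (PP (b := b)) := by
  intro l l' h
  have := congrFun h 1
  simp only [PP, Matrix.cons_val_one, Matrix.cons_val_zero] at this
  exact Fin.ext (by exact_mod_cast this)

/-- The measure: the sum of the Dirac measures at the points `(1, l, l^2)`. -/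
noncomputable def mu0 (b : ℕ) : Meas := ∑ l : Fin b, Finsupp.single (PP l) 1

lemma mu0_PP {b : ℕ} (l : Fin b) : mu0 b (PP l) = 1 := by
  classical
  unfold mu0
  rw [Finsupp.finsetSum_apply, Finset.sum_eq_single l]
  · simp
  · intro l' _ hne
    rw [Finsupp.single_apply, if_neg (fun h => hne (PP_inj h))]
  · intro h
    exact absurd (Finset.mem_univ l) h

lemma mu0_supp {b : ℕ} {x : Pt} (h : mu0 b x ≠ 0) : ∃ l : Fin b, x = PP l := by
  classical
  by_contra hne
  push Not at hne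
  apply h
  unfold mu0
  rw [Finsupp.finsetSum_apply]
  refine Finset.sum_eq_zero fun l _ => ?_
  rw [Finsupp.single_apply, if_neg (fun h => hne l h.symm)]

lemma FF_int {b : ℕ} [NeZero b] (i j k : ℕ) (p : Fin b → Pt) (hp : ∀ l, ∃ l' : Fin b, p l = PP l') :
    ∃ m : ℤ, eval (fun s : Fin b × Fin 3 => p s.1 s.2) (FF b i j k) = m := by
  have hx : ∀ (t : ℕ) (c : Fin 3),
      eval (fun s : Fin b × Fin 3 => p s.1 s.2) (xx b t c) ∈ (Int.castRingHom ℂ).range := by
    intro t c
    rw [eval_xx]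
    obtain ⟨l', h⟩ := hp (Fin.ofNat b t)
    simp only [h, PP]
    fin_cases c
    · exact ⟨1, by simp⟩
    · exact ⟨(l' : ℕ), by simp⟩
    · exact ⟨((l' : ℕ) : ℤ) ^ 2, by simp⟩
  have : eval (fun s : Fin b × Fin 3 => p s.1 s.2) (FF b i j k) ∈ (Int.castRingHom ℂ).range := by
    simp only [FF, map_mul, map_prod]
    refine Subring.mul_mem _ (Subring.mul_mem _ (Subring.prod_mem _ fun m _ => ?_)
      (Subring.prod_mem _ fun m _ => ?_)) (Subring.prod_mem _ fun m _ => ?_)
    · simp only [B3, map_sub, map_add, map_mul]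
      have h3 : ∀ (s t u : ℕ) (x y z : Fin 3),
          eval (fun s : Fin b × Fin 3 => p s.1 s.2) (xx b s x) *
            (eval (fun s : Fin b × Fin 3 => p s.1 s.2) (xx b t y) *
              eval (fun s : Fin b × Fin 3 => p s.1 s.2) (xx b u z)) ∈
            (Int.castRingHom ℂ).range := fun s t u x y z =>
        Subring.mul_mem _ (hx _ _) (Subring.mul_mem _ (hx _ _) (hx _ _))
      exact Subring.sub_mem _ (Subring.add_mem _ (Subring.add_mem _ (Subring.sub_mem _
        (Subring.sub_mem _ (h3 _ _ _ _ _ _) (h3 _ _ _ _ _ _)) (h3 _ _ _ _ _ _))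
        (h3 _ _ _ _ _ _)) (h3 _ _ _ _ _ _)) (h3 _ _ _ _ _ _)
    · simp only [B2, map_sub, map_mul]
      exact Subring.sub_mem _ (Subring.mul_mem _ (hx _ _) (hx _ _))
        (Subring.mul_mem _ (hx _ _) (hx _ _))
    · exact hx _ _
  obtain ⟨m, hm⟩ := this
  exact ⟨m, by rw [← hm]; simp⟩

lemma FF_ne {b : ℕ} [NeZero b] (hb : 3 ≤ b) (i j k : ℕ) :
    eval (fun s : Fin b × Fin 3 => PP (b := b) s.1 s.2) (FF b i j k) ≠ 0 := by
  have hd : ∀ t i j : ℕ, i < j → j < 3 →
      (((Fin.ofNat b (t + j) : Fin b) : ℕ) : ℂ) - (((Fin.ofNat b (t + i) : Fin b) : ℕ) : ℂ) ≠ 0 := by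
    intro t i j hij hj h
    apply ofNat_ne hb t i j hij hj
    apply Fin.ext
    exact_mod_cast (sub_eq_zero.1 h).symm
  simp only [FF, map_mul, map_prod]
  refine mul_ne_zero (mul_ne_zero (Finset.prod_ne_zero_iff.2 fun m _ => ?_)
    (Finset.prod_ne_zero_iff.2 fun m _ => ?_)) (Finset.prod_ne_zero_iff.2 fun m _ => ?_)
  · have h01 := hd (3 * m) 0 1 (by norm_num) (by norm_num)
    have h02 := hd (3 * m) 0 2 (by norm_num) (by norm_num)
    have h12 := hd (3 * m) 1 2 (by norm_num) (by norm_num)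
    simp only [B3, map_sub, map_add, map_mul, eval_xx, PP, Matrix.cons_val_zero,
      Matrix.cons_val_one, Matrix.cons_val]
    intro h
    apply mul_ne_zero (mul_ne_zero h01 h02) h12
    simp only [add_zero]
    linear_combination h
  · have h01 := hd (3 * i + 2 * m) 0 1 (by norm_num) (by norm_num)
    simp only [B2, map_sub, map_mul, eval_xx, PP, Matrix.cons_val_zero,
      Matrix.cons_val_one]
    intro h
    apply h01
    simp only [add_zero]
    linear_combination h
  · simp only [eval_xx, PP, Matrix.cons_val_zero]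
    exact one_ne_zero

/-- ROW B (functions). -/
theorem exists_even {b n : ℕ} (hb : 3 ≤ b) (nu : Fin 3 → ℕ) (h21 : nu 2 ≤ nu 1)
    (h10 : nu 1 ≤ nu 0) (hs : nu 0 + nu 1 + nu 2 = b * n) :
    ∃ f : Meas → ℂ, f ≠ 0 ∧ HWF (2 * n) b (fun i => 2 * nu i) f := by
  classical
  have : NeZero b := ⟨by omega⟩
  obtain ⟨j, hj⟩ := Nat.exists_eq_add_of_le h21
  obtain ⟨k, hk⟩ := Nat.exists_eq_add_of_le h10
  have hm : Multi (2 * n) b (FF b (nu 2) j k * FF b (nu 2) j k) := by
    intro l
    have h := FF_multi b (nu 2) j k n (by omega) l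
    have h2 := h.mul h
    rwa [← two_mul] at h2
  have hS : Semi (fun i => 2 * nu i) (FF b (nu 2) j k * FF b (nu 2) j k) := by
    intro g hg p
    rw [map_mul, map_mul, FF_semi b _ _ _ g hg p, Fin.prod_univ_three]
    beta_reduce
    have e0 : 2 * nu 0 = (nu 2 + j + k) + (nu 2 + j + k) := by omega
    have e1 : 2 * nu 1 = (nu 2 + j) + (nu 2 + j) := by omega
    have e2 : 2 * nu 2 = nu 2 + nu 2 := by omega
    rw [e0, e1, e2]
    ring
  refine ⟨_, ?_, hwf_of _ hm hS⟩
  intro h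
  refine Row4.integ_ne_zero (mu0 b) _ ?_ ?_ (congrFun h (mu0 b))
  · intro p hp
    have hp' : ∀ l, ∃ l' : Fin b, p l = PP l' := fun l =>
      mu0_supp (Finsupp.mem_support_iff.1 (hp l))
    obtain ⟨m, hm⟩ := FF_int (nu 2) j k p hp'
    refine ⟨(m : ℝ) * m, mul_self_nonneg _, ?_⟩
    rw [Finset.prod_eq_one (fun l _ => by obtain ⟨l', h'⟩ := hp' l; rw [h', mu0_PP]), map_mul, hm]
    push_cast
    ring
  · refine ⟨fun l => PP l, fun l => ?_, ?_⟩
    · rw [Finsupp.mem_support_iff, mu0_PP]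
      exact one_ne_zero
    · rw [Finset.prod_eq_one (fun l _ => mu0_PP l), one_mul, map_mul]
      exact mul_ne_zero (FF_ne hb _ _ _) (FF_ne hb _ _ _)

/-- ROW B. -/
theorem pos_even {b n : ℕ} (hb : 3 ≤ b) (nu : Fin 3 → ℕ) (h21 : nu 2 ≤ nu 1)
    (h10 : nu 1 ≤ nu 0) (hs : nu 0 + nu 1 + nu 2 = b * n) :
    Vale.Agent.P181.FR.Pos b (2 * n) 3 (fun i => 2 * nu i) := by
  obtain ⟨f, hf, x, hx, hxf⟩ := exists_even hb nu h21 h10 hs
  refine ⟨x, hx, ?_⟩
  rintro rfl
  apply hf
  funext c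
  rw [← hxf c]
  exact LinearMap.map_zero _

end Vale.Agent.P181.H155
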