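import Vale.Agent.P181.R2.H959.VDefs

/-!
Row V5 of P181.AllFewRows: the family (W7) from the properties of `G` (V2) and the degrees on the
curve (V4).
-/

set_option autoImplicit false

namespace Vale.Agent.P181.FR.H155

open Vale.Agent.P181 Vale.Agent.P181.H280 Vale.Agent.P181.FR

/-- The literal statement of row V2. -/
def StGprops : Prop :=
  ∀ {m i : ℕ} (_hi : 3 ≤ i) (him : i ≤ m) {al be ga c : ℕ}
    (_hc : al + ((2 * i).choose i - 1) * be + (2 * i).choose i * (1 + ga) = c),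
    (F1 him ^ al * F2 him ^ be * F3 him ^ (1 + ga)) ∈ MP (2 * i - 1 + 1) m (2 * c) ∧
    (∀ (σ : Equiv.Perm (Fin (2 * i - 1 + 1))) p,
      (F1 him ^ al * F2 him ^ be * F3 him ^ (1 + ga)) (fun j => p (σ j)) =
        (F1 him ^ al * F2 him ^ be * F3 him ^ (1 + ga)) p) ∧
    HWF (2 * i - 1 + 1) m ((4 * c) • om m i) (F1 him ^ al * F2 him ^ be * F3 him ^ (1 + ga)) ∧
    (∀ p (u v : Fin (2 * i - 1 + 1)), u ≠ v → p u = p v →
      (F1 him ^ al * F2 him ^ be * F3 him ^ (1 + ga)) p = 0)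

/-- The literal statement of row V4. -/
def StGcurve : Prop :=
  ∀ {m i : ℕ} (_hi : 3 ≤ i) (him : i ≤ m),
    ∃ (P : Fin (2 * i - 1) → Fin m → ℂ) (Ny Nz : ℕ), 1 ≤ Ny ∧ 1 ≤ Nz ∧ Ny + Nz ≤ (2 * i).choose i ∧
      ∀ La : ℕ, 2 ≤ La → ∃ D3 : ℕ, D3 + 2 * Ny + 2 * La * Nz = 2 * La * (2 * i).choose i ∧
      ∃ f1 f2 f3 : Polynomial ℝ, f1.natDegree = 2 * La ∧ f2.natDegree = D3 ∧ f3.natDegree = D3 ∧
        f1 ≠ 0 ∧ f2 ≠ 0 ∧ f3 ≠ 0 ∧
        ∀ t : ℝ, F1 him (Fin.snoc (α := fun _ => Fin m → ℂ) P (curve m La t)) =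
            ((f1.eval t : ℝ) : ℂ) ∧
          F2 him (Fin.snoc (α := fun _ => Fin m → ℂ) P (curve m La t)) = ((f2.eval t : ℝ) : ℂ) ∧
          F3 him (Fin.snoc (α := fun _ => Fin m → ℂ) P (curve m La t)) = ((f3.eval t : ℝ) : ℂ)

/-- Nonzero polynomials with distinct degrees are linearly independent. -/
theorem li_of_natDegree {ι : Type} {K : Type} [Field K] (p : ι → Polynomial K) (h0 : ∀ i, p i ≠ 0)
    (hinj : Function.Injective fun i => (p i).natDegree) : LinearIndependent K p := by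
  classical
  rw [linearIndependent_iff']
  intro s c hc
  by_contra hne
  push Not at hne
  obtain ⟨i0, hi0, hci0⟩ := hne
  obtain ⟨i, hi, hmax⟩ := Finset.exists_max_image (s.filter fun i => c i ≠ 0)
    (fun i => (p i).natDegree) ⟨i0, Finset.mem_filter.2 ⟨hi0, hci0⟩⟩
  rw [Finset.mem_filter] at hi
  have h1 := congrArg (fun q : Polynomial K => q.coeff (p i).natDegree) hc
  simp only [Polynomial.finsetSum_coeff, Polynomial.coeff_smul, Polynomial.coeff_zero,
    smul_eq_mul] at h1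
  rw [Finset.sum_eq_single i] at h1
  · rcases mul_eq_zero.1 h1 with h | h
    · exact hi.2 h
    · exact h0 i (Polynomial.leadingCoeff_eq_zero.1 h)
  · intro j hj hji
    by_cases hcj : c j = 0
    · rw [hcj, zero_mul]
    · have h2 := hmax j (Finset.mem_filter.2 ⟨hj, hcj⟩)
      have h3 : (p j).natDegree ≠ (p i).natDegree := fun h => hji (hinj h)
      rw [Polynomial.coeff_eq_zero_of_natDegree_lt (lt_of_le_of_ne h2 h3), mul_zero]
  · intro h
    exact absurd hi.1 h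

/-- Functions which are real polynomials with distinct degrees on a curve are linearly
independent. -/
theorem li_of_curve {ι V : Type} (f : ι → V → ℂ) (γ : ℝ → V) (p : ι → Polynomial ℝ)
    (h0 : ∀ i, p i ≠ 0) (hinj : Function.Injective fun i => (p i).natDegree)
    (h : ∀ i t, f i (γ t) = (((p i).eval t : ℝ) : ℂ)) : LinearIndependent ℂ f := by
  classical
  -- restriction to the curve
  let ρ : (V → ℂ) →ₗ[ℂ] (ℝ → ℂ) := LinearMap.funLeft ℂ ℂ γ
  apply LinearIndependent.of_comp ρ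
  -- the evaluation of complex polynomials on the reals
  let ε : Polynomial ℂ →ₗ[ℂ] (ℝ → ℂ) := LinearMap.pi fun t : ℝ => Polynomial.leval (t : ℂ)
  have hε : LinearMap.ker ε = ⊥ := by
    rw [LinearMap.ker_eq_bot']
    intro q hq
    apply Polynomial.eq_zero_of_infinite_isRoot
    refine Set.Infinite.mono (s := Set.range fun t : ℝ => (t : ℂ)) ?_ ?_
    · rintro _ ⟨t, rfl⟩
      have := congrFun hq t
      simpa [ε, Polynomial.leval_apply] using this
    · exact Set.infinite_range_of_injective Complex.ofReal_injective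
  have hp : LinearIndependent ℂ fun i => (p i).map (algebraMap ℝ ℂ) := by
    apply li_of_natDegree
    · intro i
      exact (Polynomial.map_ne_zero_iff (algebraMap ℝ ℂ).injective).2 (h0 i)
    · intro i j hij
      apply hinj
      simpa [Polynomial.natDegree_map] using hij
  have h2 := hp.map' ε hε
  have e : (ρ ∘ f) = (ε ∘ fun i => (p i).map (algebraMap ℝ ℂ)) := by
    funext i t
    show f i (γ t) = Polynomial.eval (t : ℂ) ((p i).map (algebraMap ℝ ℂ))
    rw [h, Polynomial.eval_map_algebraMap]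
    exact (Polynomial.aeval_algebraMap_apply_eq_algebraMap_eval t (p i)).symm
  rw [e]
  exact h2

/-- The degrees are distinct. -/
theorem deg_inj {M Ny Nz h x y x' y' c A A' D3 : ℕ} (hNy : 1 ≤ Ny) (hM : 1 ≤ M)
    (hN : Ny + Nz ≤ M) (hx : x < h) (hy : y < h) (hx' : x' < h) (hy' : y' < h)
    (a1 : A + (M - 1) * x + M * (1 + y) = c) (a2 : A' + (M - 1) * x' + M * (1 + y') = c)
    (hD : D3 + 2 * Ny + 2 * (2 * M * h + 2) * Nz = 2 * (2 * M * h + 2) * M)
    (heq : A * (2 * (2 * M * h + 2)) + x * D3 + (1 + y) * D3 =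
      A' * (2 * (2 * M * h + 2)) + x' * D3 + (1 + y') * D3) : x = x' ∧ y = y' := by
  zify [hM] at a1 a2 heq hD hx hx' hy hy' hNy hN ⊢
  have hhM : (0 : ℤ) ≤ (M : ℤ) * h := by positivity
  have hNz : (0 : ℤ) ≤ (Nz : ℤ) := by positivity
  have hx0 : (0 : ℤ) ≤ (x : ℤ) := by positivity
  have hy0 : (0 : ℤ) ≤ (y : ℤ) := by positivity
  have hx0' : (0 : ℤ) ≤ (x' : ℤ) := by positivity
  have hy0' : (0 : ℤ) ≤ (y' : ℤ) := by positivity
  generalize (M : ℤ) = m at *
  generalize (Ny : ℤ) = ny at *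
  generalize (Nz : ℤ) = nz at *
  generalize (h : ℤ) = H at *
  generalize (x : ℤ) = X at *
  generalize (y : ℤ) = Y at *
  generalize (x' : ℤ) = X' at *
  generalize (y' : ℤ) = Y' at *
  generalize (A : ℤ) = a at *
  generalize (A' : ℤ) = a' at *
  generalize (D3 : ℤ) = d at *
  generalize (c : ℤ) = C at *
  have e1 : 2 * ((2 * m * H + 2) * ((nz - 1) * (X - X') + nz * (Y - Y')) +
      ny * ((X - X') + (Y - Y'))) = 0 := by
    linear_combination (-1) * heq + 2 * (2 * m * H + 2) * (a1 - a2) +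
      ((X - X') + (Y - Y')) * hD
  obtain ⟨z, hz⟩ : ∃ z, z = (nz - 1) * (X - X') + nz * (Y - Y') := ⟨_, rfl⟩
  obtain ⟨w, hw⟩ : ∃ w, w = (X - X') + (Y - Y') := ⟨_, rfl⟩
  rw [← hz, ← hw] at e1
  have e2 : (2 * m * H + 2) * z = - (ny * w) := by linarith
  have hw1 : w ≤ 2 * H := by linarith
  have hw2 : -(2 * H) ≤ w := by linarith
  have hny : ny ≤ m := by linarith
  have b1 : ny * w ≤ 2 * m * H := by
    have h1 : ny * w ≤ ny * (2 * H) := mul_le_mul_of_nonneg_left hw1 (by linarith)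
    have h2 : ny * (2 * H) ≤ m * (2 * H) := mul_le_mul_of_nonneg_right hny (by linarith)
    linarith
  have b2 : -(2 * m * H) ≤ ny * w := by
    have h1 : ny * (-(2 * H)) ≤ ny * w := mul_le_mul_of_nonneg_left hw2 (by linarith)
    have h2 : ny * (2 * H) ≤ m * (2 * H) := mul_le_mul_of_nonneg_right hny (by linarith)
    linarith
  have hz0 : z = 0 := by
    rcases lt_trichotomy z 0 with h | h | h
    · exfalso
      have h1 : z ≤ -1 := by omega
      have h2 : (2 * m * H + 2) * z ≤ (2 * m * H + 2) * (-1) :=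
        mul_le_mul_of_nonneg_left h1 (by linarith)
      linarith
    · exact h
    · exfalso
      have h1 : 1 ≤ z := by omega
      have h2 : (2 * m * H + 2) * 1 ≤ (2 * m * H + 2) * z :=
        mul_le_mul_of_nonneg_left h1 (by linarith)
      linarith
  have hw0 : w = 0 := by
    rw [hz0, mul_zero] at e2
    have : ny * w = 0 := by linarith
    rcases mul_eq_zero.1 this with h | h
    · omega
    · exact h
  have hX : X - X' = 0 := by
    have h1 : (Y - Y') = -(X - X') := by linarith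
    rw [hz0, h1] at hz
    linarith
  exact ⟨by linarith, by linarith⟩

/-- ROW V5 (W7): the family. -/
theorem family_of (HP : StGprops) (HC : StGcurve) {m i : ℕ} (hi : 3 ≤ i) (him : i ≤ m) :
    ∃ (N : ℕ) (P : Fin (2 * i - 1) → Fin m → ℂ),
    ∀ c h : ℕ, N * (h + 1) ≤ c →
    ∃ G : Fin h → Fin h → ((Fin (2 * i - 1 + 1) → Fin m → ℂ) → ℂ),
      (∀ r k, G r k ∈ MP (2 * i - 1 + 1) m (2 * c)) ∧
      (∀ r k (σ : Equiv.Perm (Fin (2 * i - 1 + 1))) p, G r k (fun j => p (σ j)) = G r k p) ∧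
      (∀ r k, HWF (2 * i - 1 + 1) m ((4 * c) • om m i) (G r k)) ∧
      (∀ r k p (u v : Fin (2 * i - 1 + 1)), u ≠ v → p u = p v → G r k p = 0) ∧
      LinearIndependent ℂ (fun rk : Fin h × Fin h => fun q : Fin m → ℂ =>
        G rk.1 rk.2 (Fin.snoc (α := fun _ => Fin m → ℂ) P q)) := by
  obtain ⟨P, Ny, Nz, hNy, hNz, hN, HC⟩ := HC hi him
  set M : ℕ := (2 * i).choose i with hM
  refine ⟨2 * M, P, fun c h hc => ?_⟩
  have hal : ∀ r k : Fin h, (c - ((M - 1) * (r : ℕ) + M * (1 + (k : ℕ)))) + (M - 1) * (r : ℕ) +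
      M * (1 + (k : ℕ)) = c := by
    intro r k
    have h1 : (M - 1) * (r : ℕ) ≤ M * h := Nat.mul_le_mul (Nat.sub_le _ _) r.2.le
    have h2 : M * (1 + (k : ℕ)) ≤ M * h := Nat.mul_le_mul le_rfl (by have := k.2; omega)
    have h3 : 2 * M * (h + 1) = M * h + M * h + 2 * M := by ring
    omega
  refine ⟨fun r k => F1 him ^ (c - ((M - 1) * (r : ℕ) + M * (1 + (k : ℕ)))) * F2 him ^ (r : ℕ) *
    F3 him ^ (1 + (k : ℕ)), fun r k => (HP hi him (hal r k)).1,
    fun r k => (HP hi him (hal r k)).2.1, fun r k => (HP hi him (hal r k)).2.2.1,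
    fun r k => (HP hi him (hal r k)).2.2.2, ?_⟩
  obtain ⟨D3, hD, f1, f2, f3, d1, d2, d3, n1, n2, n3, hev⟩ := HC (2 * M * h + 2) (by omega)
  refine li_of_curve _ (fun t : ℝ => curve m (2 * M * h + 2) t) (fun rk : Fin h × Fin h =>
    f1 ^ (c - ((M - 1) * (rk.1 : ℕ) + M * (1 + (rk.2 : ℕ)))) * f2 ^ (rk.1 : ℕ) *
      f3 ^ (1 + (rk.2 : ℕ))) ?_ ?_ ?_
  · intro rk
    exact mul_ne_zero (mul_ne_zero (pow_ne_zero _ n1) (pow_ne_zero _ n2)) (pow_ne_zero _ n3)
  · rintro ⟨r, k⟩ ⟨r', k'⟩ heq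
    have hdeg : ∀ r k : Fin h, (f1 ^ (c - ((M - 1) * (r : ℕ) + M * (1 + (k : ℕ)))) *
        f2 ^ (r : ℕ) * f3 ^ (1 + (k : ℕ))).natDegree =
        (c - ((M - 1) * (r : ℕ) + M * (1 + (k : ℕ)))) * (2 * (2 * M * h + 2)) + (r : ℕ) * D3 +
          (1 + (k : ℕ)) * D3 := by
      intro r k
      rw [Polynomial.natDegree_mul (mul_ne_zero (pow_ne_zero _ n1) (pow_ne_zero _ n2))
        (pow_ne_zero _ n3), Polynomial.natDegree_mul (pow_ne_zero _ n1) (pow_ne_zero _ n2),
        Polynomial.natDegree_pow, Polynomial.natDegree_pow, Polynomial.natDegree_pow, d1, d2, d3]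
    simp only [hdeg] at heq
    have hM1 : 1 ≤ M := by omega
    have key : (r : ℕ) = r' ∧ (k : ℕ) = k' :=
      deg_inj hNy hM1 hN r.2 k.2 r'.2 k'.2 (hal r k) (hal r' k') hD heq
    exact Prod.ext (Fin.ext key.1) (Fin.ext key.2)
  · intro rk t
    obtain ⟨e1, e2, e3⟩ := hev t
    simp only [Pi.mul_apply, Pi.pow_apply, e1, e2, e3, Polynomial.eval_mul, Polynomial.eval_pow]
    push_cast
    ring

end Vale.Agent.P181.FR.H155
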